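import Vale.Agent.P087.Reidx

namespace Vale.Agent.Results.P087.EntropyGap

open Vale.Agent.P087

theorem result :
    (∀ k : ℕ, (∀ x y : Fin k × Fin k → ℝ, (herm x * herm y).trace = ((∑ c, x c * y c : ℝ) : ℂ)) ∧
      Set.range (herm (k := k)) = {A : Matrix (Fin k) (Fin k) ℂ | A.IsHermitian}) ∧
    ∃ (H : Type) (_ : NormedAddCommGroup H) (_ : InnerProductSpace ℂ H) (_ : CompleteSpace H)
      (M : VonNeumannAlgebra H) (Ω : H) (n : ℕ) (X S : Fin n → H →L[ℂ] H),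
      ‖Ω‖ = 1 ∧
      (∀ a ∈ M, ∀ b ∈ M, tau Ω (a * b) = tau Ω (b * a)) ∧
      (∀ a ∈ M, tau Ω (star a * a) = 0 → a = 0) ∧
      1 ≤ n ∧
      (∀ j, X j ∈ M ∧ IsSelfAdjoint (X j)) ∧
      (∀ j, S j ∈ M ∧ IsSemicircular Ω (S j)) ∧
      IsFree Ω (algs X S) ∧
      ⊥ < chi Ω X ∧ chi Ω X < chiStar Ω X S ∧ chiStar Ω X S < ⊤ := by
  refine ⟨fun k => ⟨trace_herm, range_herm k⟩, ?_⟩
  obtain ⟨m, hm, hm1⟩ : ∃ m : ℕ, (m : ℝ) = (10 ^ 8) ^ 4 ∧ 1 ≤ m :=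
    ⟨(10 ^ 8) ^ 4, by norm_num, by norm_num⟩
  let e := (Fintype.equivFin (JJ m)).symm
  refine ⟨FH (AA m), inferInstance, inferInstance, inferInstance, MF (AA m), Om _, _,
    fun j => XX m (e j), fun j => SS m (e j), norm_Om, fun a ha b hb => MF_trace ha hb,
    fun a ha => MF_faithful ha, ?_, fun j => ⟨XX_MF _, star_XX _⟩,
    fun j => ⟨sc_mem_MF _, semi_sc _⟩, isFree_reidx _ e free_XS, ?_⟩
  · exact Fintype.card_pos_iff.2 ⟨Sum.inl ⟨0, hm1⟩⟩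
  · rw [chi_reidx, chiStar_reidx]
    exact model_main le_rfl hm

end Vale.Agent.Results.P087.EntropyGap
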